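import Vale.Agent.P240.R2.H986.W.Hua
import Vale.Agent.P240.R2.H997.ParFix

/-!
Twisted groups: automorphisms that stabilize `B` and the opposite subgroup.
-/

set_option autoImplicit false

namespace Vale.Agent.P240.R2.H945.W

open Subgroup Vale.Agent.P240.K Vale.Agent.P240.H195
open Vale.Agent.P240.R2.H986.X (RC nn nl wl nl_nil nl_cons nl_append wl_nil wl_cons wl_append wl_neg wl_s
  wl_rev wl_rev' SS)

universe u

/-- subfields of a finite field with the same number of elements are equal -/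
lemma subfield_eq {F : Type*} [Field F] [Finite F] {E E' : Subfield F}
    (hc : Nat.card E = Nat.card E') : E = E' := by
  classical
  have key : ∀ E : Subfield F, (E : Set F) = {y : F | y ^ Nat.card E = y} := by
    intro E
    have : Fintype F := Fintype.ofFinite F
    have : Fintype E := Fintype.ofFinite E
    have hcard : 1 < Nat.card E := Finite.one_lt_card
    have hsub : (E : Set F).toFinset ⊆ ((Polynomial.X ^ Nat.card E - Polynomial.X :
        Polynomial F).roots).toFinset := by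
      intro y hy
      rw [Set.mem_toFinset] at hy
      rw [Multiset.mem_toFinset, Polynomial.mem_roots (FiniteField.X_pow_card_sub_X_ne_zero F hcard)]
      have h1 : (⟨y, hy⟩ : E) ^ Nat.card E = ⟨y, hy⟩ := by
        rw [Nat.card_eq_fintype_card]
        exact FiniteField.pow_card _
      have h2 : y ^ Nat.card E = y := congrArg Subtype.val h1
      rw [Polynomial.IsRoot, Polynomial.eval_sub, Polynomial.eval_pow, Polynomial.eval_X, h2, sub_self]
    have hle : ((Polynomial.X ^ Nat.card E - Polynomial.X : Polynomial F).roots).toFinset.card ≤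
        (E : Set F).toFinset.card := by
      refine (Multiset.toFinset_card_le _).trans ((Polynomial.card_roots' _).trans ?_)
      rw [FiniteField.X_pow_card_sub_X_natDegree_eq F hcard, Set.toFinset_card,
        Nat.card_eq_fintype_card]
      exact le_rfl
    have heq := Finset.eq_of_subset_of_card_le hsub hle
    ext y
    have h3 : y ∈ (E : Set F).toFinset ↔ y ∈ ((Polynomial.X ^ Nat.card E - Polynomial.X :
        Polynomial F).roots).toFinset := by rw [heq]
    rw [Set.mem_toFinset, Multiset.mem_toFinset,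
      Polynomial.mem_roots (FiniteField.X_pow_card_sub_X_ne_zero F hcard), Polynomial.IsRoot,
      Polynomial.eval_sub, Polynomial.eval_pow, Polynomial.eval_X, sub_eq_zero] at h3
    exact h3
  apply SetLike.coe_injective
  rw [key E, key E', hc]

section
variable {ι : Type*} {F : Type*} [Field F] {L : Type u} [Group L] {C : RC ι} {K : ι → Subfield F}
  {x : ι → F → L}

namespace TS

variable (h : TS C K x)
include h

/-- different indices commute -/
lemma mixed {i k : ι} (hi : C.simp i) (hk : C.simp k) (hne : i ≠ k) {t u : F} (ht : t ∈ K i)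
    (hu : u ∈ K k) : x (C.neg i) t * x k u = x k u * x (C.neg i) t := by
  have hip := C.simp_pos i hi
  have hkp := C.simp_pos k hk
  have h1 := h.comm (C.neg i) k (fun e => by
    have := C.ht_neg i
    rw [e] at this
    omega) (fun e => hne (by rw [← C.neg_neg i, e, C.neg_neg])) t u (by rw [h.K_neg]; exact ht) hu
  have h2 : gr K x (C.cone (C.neg i) k) = ⊥ := by
    rw [gr, closure_eq_bot_iff]
    rintro _ ⟨j, w, hj, -, rfl⟩
    exact absurd hj (C.cone_mixed i k j hi hk hne)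
  rw [h2, mem_bot] at h1
  have e1 : x (C.neg i) t * x k u = (x (C.neg i) t * x k u * (x (C.neg i) t)⁻¹ * (x k u)⁻¹) *
      (x k u * x (C.neg i) t) := by group
  rw [e1, h1, one_mul]

variable [Finite L] [Finite F] {r : ℕ} (hr : r.Prime)
  (hb : SB r (BB C K x) (NN C K x) (UU C K x) (SS C x))

section
variable (hp : IsPGroup r (UM C K x))
include hr hb hp

/-- the opposite root subgroups are permuted -/
lemma neg_index {e : MulAut L} (heU : ∀ y ∈ UM C K x, e y ∈ UM C K x) {i k : ι} (hi : C.simp i)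
    (hk : C.simp k)
    (heP : am e (Par (BB C K x) (nn C.neg x i 1)) = Par (BB C K x) (nn C.neg x k 1)) {t : F}
    (ht : t ∈ K i) : ∃ t' ∈ K k, e (x (C.neg i) t) = x (C.neg k) t' := by
  obtain ⟨l, hls, hl⟩ := C.long
  have h1 : e (x (C.neg i) t) ∈ Par (BB C K x) (nn C.neg x k 1) := by
    rw [← heP]
    exact apply_mem_am (h.x_par hi ht)
  have h2 : e (x (C.neg i) t) ∈ UM C K x := heU _ (x_mem_UM (by
    have := C.simp_pos i hi
    rw [C.ht_neg]
    omega) (by rw [h.K_neg]; exact ht))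
  exact h.root_eq hl hr hb hp hls hk h1 h2

end

section
variable (hb' : SB r (BB C.opp K x) (NN C.opp K x) (UU C.opp K x) (SS C.opp x))
  (hp : IsPGroup r (UM C K x)) (hp' : IsPGroup r (UU C K x))
include hr hb hb' hp hp'

/-- the field of the image -/
lemma card_le {e : MulAut L} (heO : am e (BB C.opp K x) = BB C.opp K x) {i k : ι} (hi : C.simp i)
    (hk : C.simp k)
    (heP : am e (Par (BB C K x) (nn C.neg x i 1)) = Par (BB C K x) (nn C.neg x k 1)) :
    Nat.card (K i) ≤ Nat.card (K k) := by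
  have heM : ∀ y ∈ UM C K x, e y ∈ UM C K x := fun y hy => by
    rw [← UU_opp] at hy ⊢
    exact hb'.apply_U hr heO hy
  have h1 : ∀ t : K i, ∃ t' : K k, e (x (C.neg i) t) = x (C.neg k) t' := fun t => by
    obtain ⟨t', ht', h2⟩ := h.neg_index hr hb hp heM hi hk heP t.2
    exact ⟨⟨t', ht'⟩, h2⟩
  choose φ hφ using h1
  refine Nat.card_le_card_of_injective φ fun a b hab => ?_
  apply Subtype.ext
  apply h.x_inj (i := C.neg i) (by rw [h.K_neg]; exact a.2) (by rw [h.K_neg]; exact b.2)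
  apply e.injective
  rw [hφ, hφ, hab]

/-- **the action on the root elements**, for automorphisms that permute the parabolic subgroups -/
theorem act_index {e : MulAut L} (heB : am e (BB C K x) = BB C K x)
    (heO : am e (BB C.opp K x) = BB C.opp K x) {i k : ι} (hi : C.simp i) (hk : C.simp k)
    (heP : am e (Par (BB C K x) (nn C.neg x i 1)) = Par (BB C K x) (nn C.neg x k 1)) :
    K k = K i ∧ ∃ (σ : K i ≃+* K i) (c : K i), c ≠ 0 ∧ ∀ t : K i,
      e (x i t) = x k ((c * σ t : K i) : F) ∧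
      e (x (C.neg i) t) = x (C.neg k) ((c⁻¹ * σ t : K i) : F) := by
  have heU : ∀ y ∈ UU C K x, e y ∈ UU C K x := fun y hy => hb.apply_U hr heB hy
  have heM : ∀ y ∈ UM C K x, e y ∈ UM C K x := fun y hy => by
    rw [← UU_opp] at hy ⊢
    exact hb'.apply_U hr heO hy
  have hKK : K k = K i := by
    apply subfield_eq
    refine le_antisymm ?_ (h.card_le hr hb hb' hp hp' heO hi hk heP)
    refine h.card_le hr hb hb' hp hp' (e := e⁻¹) (am_inv_eq heO) hk hi ?_
    rw [← heP, ← am_mul, inv_mul_cancel, am_one]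
  have h1 : ∀ t ∈ K i, ∃ t' ∈ K k, e (x (C.neg i) t) = x (C.neg k) t' :=
    fun t ht => h.neg_index hr hb hp heM hi hk heP ht
  -- the positive root subgroup
  have hs : nn C.opp.neg x (C.neg i) 1 ∈ SS C.opp x := ⟨C.neg i, by
    show C.simp (C.neg (C.neg i))
    rw [C.neg_neg]; exact hi, rfl⟩
  obtain ⟨_, ⟨m, hm, rfl⟩, h2⟩ := hb'.am_par heO hs
  have hm' : C.simp (C.neg m) := hm
  have h3 : ∀ t ∈ K i, ∃ t' ∈ K (C.neg m), e (x i t) = x (C.neg m) t' := by
    intro t ht
    have h4 := h.opp'.neg_index (e := e) hr hb' (by rw [UM_opp]; exact hp')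
      (fun y hy => by rw [UM_opp] at hy ⊢; exact heU y hy) (i := C.neg i) (k := m)
      (by show C.simp (C.neg (C.neg i)); rw [C.neg_neg]; exact hi) hm h2 (t := t)
      (by rw [h.K_neg]; exact ht)
    obtain ⟨t', ht', h5⟩ := h4
    refine ⟨t', by rw [h.K_neg]; exact ht', ?_⟩
    change e (x (C.neg (C.neg i)) t) = x (C.neg m) t' at h5
    rwa [C.neg_neg] at h5
  have hkm : k = C.neg m := by
    by_contra hne
    have h5 : (1 : F) = 0 := by
      apply h.norm_zero (k := i) (one_mem _)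
      intro u hu
      obtain ⟨a, ha', ha⟩ := h1 1 (one_mem _)
      obtain ⟨b, hb1, hb2⟩ := h3 u hu
      refine ⟨u, hu, ?_⟩
      apply e.injective
      rw [map_mul, map_mul, map_inv, ha, hb2, h.mixed hk hm' hne ha' hb1]
      group
    exact one_ne_zero h5
  rw [← hkm] at h3
  exact ⟨hKK, h.aut_pair hKK h3 h1⟩

end

include hr hb

omit [Finite F] in
lemma s_inj {i j : ι} (hi : C.simp i) (hj : C.simp j)
    (hB : (nn C.neg x i 1)⁻¹ * nn C.neg x j 1 ∈ BB C K x) : i = j := by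
  by_contra hne
  have hN : (nn C.neg x i 1)⁻¹ * nn C.neg x j 1 ∈ NN C K x :=
    mul_mem (inv_mem (SS_le _ ⟨i, hi, rfl⟩)) (SS_le _ ⟨j, hj, rfl⟩)
  have hT : (nn C.neg x i 1)⁻¹ * nn C.neg x j 1 ∈ TT C K x := by
    rw [← h.inf_eq]; exact ⟨hB, hN⟩
  obtain ⟨c, hcK, hc, h1⟩ := h.T_act hT j
  obtain ⟨d, hdK, hd0, h2, -⟩ := h.nl_act [j] j
  have h3 := h2 1 (one_mem _)
  rw [wl_cons, wl_nil, C.s_self, nl_cons, nl_nil, mul_one] at h3
  obtain ⟨f, hfK, hf0, h4, -⟩ := h.nl_act [i] j
  have h5 := h4 c hcK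
  rw [wl_cons, wl_nil, nl_cons, nl_nil, mul_one] at h5
  have h6 := h1 1 (one_mem _)
  rw [mul_one] at h6
  have h7 := C.s_pos i j hi (C.simp_pos j hj) (Ne.symm hne)
  have e1 : x (C.neg j) (d 1) = x (C.s i j) (f c) := by
    rw [← h3, ← h5, ← h6]
    group
  have h8 : x (C.neg j) (d 1) ∈ UU C K x := by
    rw [e1]; exact x_mem_UU h7 (by rw [h.K_s]; exact hfK c hcK)
  have hjp := C.simp_pos j hj
  have h9 := h.x_not_mem (by rw [C.ht_neg]; omega) (by rw [h.K_neg]; exact hdK 1 (one_mem _)) h8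
  exact hd0 1 (one_mem _) one_ne_zero h9

omit [Finite F] in
lemma s_comm {i j : ι} (hi : C.simp i) (hj : C.simp j) (hne : i ≠ j) :
    (nn C.neg x j 1 * nn C.neg x i 1)⁻¹ * (nn C.neg x i 1 * nn C.neg x j 1) ∈ BB C K x ↔
      C.pr j i = 0 := by
  constructor
  · intro hB
    by_contra hpr
    have hadj := (C.adj i j hi hj hne hpr).1
    have hiN := SS_le (K := K) _ (⟨i, hi, rfl⟩ : nn C.neg x i 1 ∈ SS C x)
    have hjN := SS_le (K := K) _ (⟨j, hj, rfl⟩ : nn C.neg x j 1 ∈ SS C x)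
    have hT : (nn C.neg x j 1 * nn C.neg x i 1)⁻¹ * (nn C.neg x i 1 * nn C.neg x j 1) ∈
        TT C K x := by
      rw [← h.inf_eq]
      exact Subgroup.mem_inf.2 ⟨hB, mul_mem (inv_mem (mul_mem hjN hiN)) (mul_mem hiN hjN)⟩
    obtain ⟨c, hcK, hc, h1⟩ := h.T_act hT j
    obtain ⟨d, hdK, hd, h2, -⟩ := h.nl_act [i, j] j
    obtain ⟨f, hfK, hf, h3, -⟩ := h.nl_act [j, i] j
    have e1 : nl C x [i, j] = nn C.neg x i 1 * nn C.neg x j 1 := by
      rw [nl_cons, nl_cons, nl_nil, mul_one]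
    have e2 : nl C x [j, i] = nn C.neg x j 1 * nn C.neg x i 1 := by
      rw [nl_cons, nl_cons, nl_nil, mul_one]
    have e3 : wl C [i, j] j = C.neg (C.s i j) := by
      rw [wl_cons, wl_cons, wl_nil, C.s_self, C.s_neg]
    have e4 : wl C [j, i] j = C.s j (C.s i j) := rfl
    have h4 := h2 1 (one_mem _)
    have h5 := h3 c hcK
    rw [e1, e3] at h4
    rw [e2, e4] at h5
    have h6 := h1 1 (one_mem _)
    rw [mul_one] at h6
    have h7 : x (C.neg (C.s i j)) (d 1) = x (C.s j (C.s i j)) (f c) := by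
      rw [← h4, ← h5, ← h6]
      group
    have h8 := C.s_pos i j hi (C.simp_pos j hj) (Ne.symm hne)
    have h9 := C.s_pos j (C.s i j) hj h8 hadj
    have h10 : x (C.neg (C.s i j)) (d 1) ∈ UU C K x := by
      rw [h7]; exact x_mem_UU h9 (by rw [h.K_s, h.K_s]; exact hfK c hcK)
    exact hd 1 (one_mem _) one_ne_zero (h.x_not_mem (by rw [C.ht_neg]; omega)
      (by rw [h.K_neg, h.K_s]; exact hdK 1 (one_mem _)) h10)
  · intro hpr
    obtain ⟨c, hcK, hc, -, h1⟩ := h.nn_act i j (one_mem (K i)) (one_ne_zero)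
    have h2 := h1 1 (one_mem _) one_ne_zero
    rw [C.s_fix i j hpr] at h2
    have e1 : (nn C.neg x j 1 * nn C.neg x i 1)⁻¹ * (nn C.neg x i 1 * nn C.neg x j 1) =
        (nl C x [i])⁻¹ * ((nn C.neg x j 1)⁻¹ * nn C.neg x j (c 1)) * nl C x [i] := by
      rw [← h2, nl_cons, nl_nil]
      group
    rw [e1]
    exact TT_le_BB (h.nl_inv_conj_T [i] (h.nn_inv_nn (one_mem _) one_ne_zero (hcK 1 (one_mem _))
      (hc 1 (one_mem _) one_ne_zero)))

variable (hb' : SB r (BB C.opp K x) (NN C.opp K x) (UU C.opp K x) (SS C.opp x))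
  (hp : IsPGroup r (UM C K x)) (hp' : IsPGroup r (UU C K x))
include hb' hp hp'

/-- the permutation of the simple roots -/
theorem par_fix (hPC : PC C K) {e : MulAut L} (heB : am e (BB C K x) = BB C K x)
    (heO : am e (BB C.opp K x) = BB C.opp K x) {i : ι} (hi : C.simp i) :
    am e (Par (BB C K x) (nn C.neg x i 1)) = Par (BB C K x) (nn C.neg x i 1) := by
  obtain ⟨π, h1, h2, -, h4⟩ := Vale.Agent.P240.R2.H997.par_perm hb
    (fun i : {i // C.simp i} => nn C.neg x i.1 1) (fun i => ⟨i.1, i.2, rfl⟩)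
    (by
      rintro _ ⟨i, hi, rfl⟩
      exact ⟨⟨i, hi⟩, by rw [inv_mul_cancel]; exact one_mem _⟩)
    (fun i j hij => Subtype.ext (h.s_inj hr hb i.2 j.2 hij)) heB
  have h5 : π = 1 := by
    apply hPC
    · intro i
      exact (h.act_index hr hb hb' hp hp' heB heO i.2 (π i).2 (h1 i)).1
    · intro i j
      by_cases hij : i = j
      · subst hij
        rw [C.pr_self, C.pr_self]
      · have hij' : (i : ι) ≠ j := fun e1 => hij (Subtype.ext e1)
        have hij'' : (π i : ι) ≠ π j := fun e1 => hij (π.injective (Subtype.ext e1))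
        rw [C.pr_zero j.1 i.1, C.pr_zero (π j).1 (π i).1, ← h.s_comm hr hb i.2 j.2 hij',
          ← h.s_comm hr hb (π i).2 (π j).2 hij'']
        exact h2 i j
  have h6 := h1 ⟨i, hi⟩
  rwa [h5] at h6

/-- **TW4** -/
theorem alT (hLC : LC C K x) (hPC : PC C K) {e : MulAut L} (heB : am e (BB C K x) = BB C K x)
    (heO : am e (BB C.opp K x) = BB C.opp K x) :
    ∃ (σ : F ≃+* F) (c : ι → F), AlT C K x e σ c := by
  classical
  have h1 : ∀ i, C.simp i → ∃ (σ : K i ≃+* K i) (c : K i), c ≠ 0 ∧ ∀ t : K i,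
      e (x i t) = x i ((c * σ t : K i) : F) ∧
      e (x (C.neg i) t) = x (C.neg i) ((c⁻¹ * σ t : K i) : F) := fun i hi =>
    (h.act_index hr hb hb' hp hp' heB heO hi hi
      (h.par_fix hr hb hb' hp hp' hPC heB heO hi)).2
  obtain ⟨i₀, hi₀, hK₀, hind⟩ := hLC
  obtain ⟨σ₀, c₀, hc₀, hσ₀⟩ := h1 i₀ hi₀
  let E : F ≃+* K i₀ :=
    { toFun := fun t => ⟨t, by rw [hK₀]; trivial⟩
      invFun := fun t => t
      left_inv := fun _ => rfl
      right_inv := fun _ => rfl
      map_mul' := fun _ _ => rfl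
      map_add' := fun _ _ => rfl }
  obtain ⟨σ, hσ⟩ : ∃ σ : F ≃+* F, ∀ t : K i₀, σ (t : F) = (σ₀ t : F) :=
    ⟨(E.trans σ₀).trans E.symm, fun t => rfl⟩
  have huniq : ∀ (j : ι) (σ σ' : K j ≃+* K j) (c c' : K j), c ≠ 0 →
      (∀ t : K j, e (x j t) = x j ((c * σ t : K j) : F)) →
      (∀ t : K j, e (x j t) = x j ((c' * σ' t : K j) : F)) → ∀ t, σ t = σ' t := by
    intro j σ σ' c c' hc h2 h3 t
    have h4 : ∀ t, c * σ t = c' * σ' t := fun t => by
      apply Subtype.ext
      apply h.x_inj (i := j) (c * σ t).2 (c' * σ' t).2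
      rw [← h2, ← h3]
    have h5 := h4 1
    rw [map_one, map_one, mul_one, mul_one] at h5
    have h6 := h4 t
    rw [← h5] at h6
    exact mul_left_cancel₀ hc h6
  have key := hind (fun j => ∀ (τ : K j ≃+* K j) (c : K j), c ≠ 0 →
    (∀ t : K j, e (x j t) = x j ((c * τ t : K j) : F) ∧
      e (x (C.neg j) t) = x (C.neg j) ((c⁻¹ * τ t : K j) : F)) → ∀ t : K j, σ (t : F) = τ t)
    (fun τ c hc h2 t => by
      rw [hσ, huniq i₀ σ₀ τ c₀ c hc₀ (fun t => (hσ₀ t).1) (fun t => (h2 t).1)])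
    (fun i j hi hj hpj hR τ c hc h2 t => by
      obtain ⟨τ', c', hc', h3⟩ := h1 j hj
      have h4 := h.torus_rel (i := i) (k := i) (j := j) (l := j) rfl rfl hc hc' h2
        (fun t => (h3 t).1) hR hR t
      rw [← h4]
      exact hpj τ' c' hc' h3 ⟨t, hR.1 t.2⟩)
  have h2 : ∀ i, ∃ c : F, C.simp i → c ∈ K i ∧ c ≠ 0 ∧ ∀ t, t ∈ K i → σ t ∈ K i ∧
      e (x i t) = x i (c * σ t) ∧ e (x (C.neg i) t) = x (C.neg i) (c⁻¹ * σ t) := by
    intro i
    by_cases hi : C.simp i
    · obtain ⟨τ, c, hc, h3⟩ := h1 i hi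
      have h4 := key i hi τ c hc h3
      refine ⟨c, fun _ => ⟨c.2, fun e0 => hc (Subtype.ext e0), fun t ht => ?_⟩⟩
      have h5 := h4 ⟨t, ht⟩
      change σ t = _ at h5
      have h6 := h3 ⟨t, ht⟩
      push_cast at h6
      rw [h5]
      exact ⟨(τ _).2, h6⟩
    · exact ⟨0, fun h3 => absurd h3 hi⟩
  choose c hc using h2
  exact ⟨σ, c, fun i hi => hc i hi⟩

end TS

end

section
variable {ι : Type*} {F : Type*} [Field F] {L : Type u} [Group L] {C : RC ι} {K : ι → Subfield F}
  {x : ι → F → L}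

/-- the hypotheses -/
lemma TS.data [Finite ι] [Finite F] [Finite L] {r : ℕ} [Fact r.Prime] [CharP F r] (h : TS C K x)
    (hc : ∀ g : L, (∀ y, g * y = y * g) → g = 1) :
    SB r (BB C K x) (NN C K x) (UU C K x) (SS C x) ∧
      SB r (BB C.opp K x) (NN C.opp K x) (UU C.opp K x) (SS C.opp x) ∧
      IsPGroup r (UM C K x) ∧ IsPGroup r (UU C K x) := by
  have h1 := (splitBN h hc r).toSB
  have h2 := (splitBN h.opp' hc r).toSB
  refine ⟨h1, h2, ?_, h1.pgroup⟩
  have h3 := h2.pgroup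
  rwa [UU_opp] at h3

end

theorem stmtT4 : StmtT4.{u} := by
  intro ι _ F _ _ L _ _ r _ _ C K x h hc hLC hPC l _ hl e heB heO
  obtain ⟨h1, h2, h3, h4⟩ := h.data (r := r) hc
  rw [h.cj_BB hl] at heO
  exact h.alT Fact.out h1 h2 h3 h4 hLC hPC heB heO

end Vale.Agent.P240.R2.H945.W
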