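import Vale.Agent.P240.R2.H945.W.Defs
import Vale.Agent.P240.R2.H986.X.Stm4

/-!
Literal statements for the automorphisms of the twisted groups.
-/

set_option autoImplicit false

namespace Vale.Agent.P240.R2.H945.W

open Subgroup Vale.Agent.P240.K Vale.Agent.P240.H195
open Vale.Agent.P240.R2.H986.X (RC nn nl wl SS)

universe u

section
variable {ι : Type*} {F : Type*} [Field F] {L : Type*} [Group L]

/-- the automorphism `e` acts on the root elements of the simple roots and their negatives by the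
field automorphism `σ` and the scalars `c` -/
def AlT (C : RC ι) (K : ι → Subfield F) (x : ι → F → L) (e : MulAut L) (σ : F ≃+* F) (c : ι → F) :
    Prop :=
  ∀ i, C.simp i → c i ∈ K i ∧ c i ≠ 0 ∧ ∀ t, t ∈ K i → σ t ∈ K i ∧
    e (x i t) = x i (c i * σ t) ∧ e (x (C.neg i) t) = x (C.neg i) ((c i)⁻¹ * σ t)

/-- `h_i(t) x_j(u) h_i(t)⁻¹ = x_j(t⁻¹ u)` for `t ∈ K i`, `u ∈ K j`, and `K i ≤ K j` -/
def LR (C : RC ι) (K : ι → Subfield F) (x : ι → F → L) (i j : ι) : Prop :=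
  K i ≤ K j ∧ ∀ t u, t ∈ K i → t ≠ 0 → u ∈ K j →
    (nn C.neg x i t * (nn C.neg x i 1)⁻¹) * x j u * (nn C.neg x i t * (nn C.neg x i 1)⁻¹)⁻¹ =
      x j (t⁻¹ * u)

/-- the simple roots are connected to one with `K i = ⊤` by the relation `LR` -/
def LC (C : RC ι) (K : ι → Subfield F) (x : ι → F → L) : Prop :=
  ∃ i₀, C.simp i₀ ∧ K i₀ = ⊤ ∧ ∀ p : ι → Prop, p i₀ →
    (∀ i j, C.simp i → C.simp j → p j → LR C K x i j → p i) → ∀ j, C.simp j → p j

/-- the diagram with its fields has no symmetry -/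
def PC (C : RC ι) (K : ι → Subfield F) : Prop :=
  ∀ π : Equiv.Perm {i // C.simp i}, (∀ i, K (π i).1 = K i.1) →
    (∀ i j, C.pr i.1 j.1 = 0 ↔ C.pr (π i).1 (π j).1 = 0) → π = 1

/-- the `d`-th powers of all scalars on the simple root elements are given by elements of `L` -/
def DC (C : RC ι) (K : ι → Subfield F) (x : ι → F → L) (d : ℕ) : Prop :=
  ∀ c : ι → F, (∀ i, C.simp i → c i ∈ K i ∧ c i ≠ 0) → ∃ g : L, ∀ j, C.simp j → ∀ u, u ∈ K j →
    g * x j u * g⁻¹ = x j (c j ^ d * u) ∧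
    g * x (C.neg j) u * g⁻¹ = x (C.neg j) ((c j ^ d)⁻¹ * u)

end

/-- **TW4**: automorphisms that stabilize `B` and the opposite subgroup. -/
def StmtT4 : Prop := ∀ (ι : Type) [Finite ι] (F : Type) [Field F] [Finite F] (L : Type u) [Group L]
  [Finite L] (r : ℕ) [Fact r.Prime] [CharP F r] (C : RC ι) (K : ι → Subfield F) (x : ι → F → L),
  TS C K x → (∀ g : L, (∀ y, g * y = y * g) → g = 1) → LC C K x → PC C K →
  ∀ l : List ι, (∀ i ∈ l, C.simp i) → (∀ j, 0 < C.ht j → C.ht (wl C l j) < 0) →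
  ∀ e : MulAut L, am e (BB C K x) = BB C K x →
    am e (cj (nl C x l) (BB C K x)) = cj (nl C x l) (BB C K x) →
    ∃ (σ : F ≃+* F) (c : ι → F), AlT C K x e σ c

/-- **TW5**: the end of the proof -/
def StmtT5 : Prop := ∀ (ι : Type) [Finite ι] (F : Type) [Field F] [Finite F] (L : Type u) [Group L]
  [Finite L] (r : ℕ) [Fact r.Prime] [CharP F r] (C : RC ι) (K : ι → Subfield F) (x : ι → F → L),
  TS C K x → (∀ g : L, (∀ y, g * y = y * g) → g = 1) → LC C K x → PC C K →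
  ∀ d : ℕ, DC C K x d → ∀ p : ℕ, p.Prime → p ≠ r → Nat.Coprime p d →
  Nat.Coprime p (Nat.totient d) → FewAut p L

end Vale.Agent.P240.R2.H945.W
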