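import Vale.Agent.P240.R2.H986.W.Rt
import Vale.Agent.P240.R2.H986.W.Stm
import Vale.Agent.P240.R2.H986.X.Hua

/-!
Twisted groups: the action of an automorphism on a pair of opposite root subgroups.
-/

set_option autoImplicit false

namespace Vale.Agent.P240.R2.H945.W

open Subgroup Vale.Agent.P240.K Vale.Agent.P240.H195
open Vale.Agent.P240.R2.H986.X (RC nn nl wl nl_nil nl_cons nl_append wl_nil wl_cons wl_append wl_neg wl_s
  wl_rev wl_rev' SS hua)

section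
variable {ι : Type*} {F : Type*} [Field F] {L : Type*} [Group L] {C : RC ι} {K : ι → Subfield F}
  {x : ι → F → L}

namespace TS

variable (h : TS C K x)
include h

lemma x_ne_opp {k : ι} {u v : F} (hu : u ∈ K k) (hv : v ∈ K k) (e : x k u = x (C.neg k) v) :
    u = 0 ∧ v = 0 := by
  have hv' : v ∈ K (C.neg k) := by rw [h.K_neg]; exact hv
  rcases lt_or_gt_of_ne (C.ht_ne k) with hk | hk
  · have h1 : x k u ∈ UU C K x := by
      rw [e]
      exact x_mem_UU (by rw [C.ht_neg]; omega) hv'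
    have h2 := h.x_not_mem hk hu h1
    refine ⟨h2, h.inj (C.neg k) _ hv' ?_⟩
    rw [← e, h2, h.x_zero]
  · have h1 : x (C.neg k) v ∈ UU C K x := by
      rw [← e]
      exact x_mem_UU hk hu
    have h2 := h.x_not_mem (by rw [C.ht_neg]; omega) hv' h1
    refine ⟨h.inj k _ hu ?_, h2⟩
    rw [e, h2, h.x_zero]

/-- a nontrivial element of `X_{-k}` does not normalize `X_k` -/
lemma norm_zero {k : ι} {w : F} (hwK : w ∈ K k)
    (hw : ∀ u ∈ K k, ∃ u' ∈ K k, x (C.neg k) w * x k u * (x (C.neg k) w)⁻¹ = x k u') : w = 0 := by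
  by_contra hne
  obtain ⟨τ, hτ, hk0⟩ := h.refl k k
  have hti : -w⁻¹ ≠ 0 := neg_ne_zero.2 (inv_ne_zero hne)
  have htK : -w⁻¹ ∈ K k := neg_mem (inv_mem hwK)
  obtain ⟨c, hc, hc0, hk⟩ := hk0 (-w⁻¹) htK hti
  have h1 := (hk 1 (one_mem _)).1
  have e1 : nn C.neg x k (-w⁻¹) = x k (-w⁻¹) * x (C.neg k) w * x k (-w⁻¹) := by
    rw [nn, inv_neg, inv_inv, neg_neg]
  have h2 : x k (-w⁻¹) * x k 1 = x k 1 * x k (-w⁻¹) := by
    rw [← h.add _ _ _ htK (one_mem _), ← h.add _ _ _ (one_mem _) htK, add_comm]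
  obtain ⟨u', hu', h3⟩ := hw 1 (one_mem _)
  have e2 : nn C.neg x k (-w⁻¹) * x k 1 * (nn C.neg x k (-w⁻¹))⁻¹ = x k (-w⁻¹ + u' + w⁻¹) := by
    rw [e1]
    calc x k (-w⁻¹) * x (C.neg k) w * x k (-w⁻¹) * x k 1 *
          (x k (-w⁻¹) * x (C.neg k) w * x k (-w⁻¹))⁻¹
        = x k (-w⁻¹) * x (C.neg k) w * (x k (-w⁻¹) * x k 1 * (x k (-w⁻¹))⁻¹) *
          (x (C.neg k) w)⁻¹ * (x k (-w⁻¹))⁻¹ := by group
      _ = x k (-w⁻¹) * (x (C.neg k) w * x k 1 * (x (C.neg k) w)⁻¹) * (x k (-w⁻¹))⁻¹ := by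
          rw [h2]; group
      _ = _ := by
          rw [h3, ← h.x_neg k htK, neg_neg, ← h.add _ _ _ htK hu',
            ← h.add _ _ _ (add_mem htK hu') (inv_mem hwK)]
  rw [e2, C.s_self] at h1
  have h4 := (h.x_ne_opp (add_mem (add_mem htK hu') (inv_mem hwK))
    (mul_mem hc ((hτ 1).2 (one_mem _))) h1).2
  rw [map_one, mul_one] at h4
  exact hc0 h4

variable [Finite F]

/-- the action of an automorphism on opposite root subgroups -/
theorem aut_pair {e : MulAut L} {k k' : ι} (hKK : K k' = K k)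
    (h1 : ∀ t ∈ K k, ∃ t' ∈ K k', e (x k t) = x k' t')
    (h2 : ∀ t ∈ K k, ∃ t' ∈ K k', e (x (C.neg k) t) = x (C.neg k') t') :
    ∃ (σ : K k ≃+* K k) (c : K k), c ≠ 0 ∧ ∀ t : K k, e (x k t) = x k' ((c * σ t : K k) : F) ∧
      e (x (C.neg k) t) = x (C.neg k') ((c⁻¹ * σ t : K k) : F) := by
  have h1' : ∀ t : K k, ∃ t' : K k, e (x k t) = x k' t' := fun t => by
    obtain ⟨t', ht', h3⟩ := h1 t t.2
    exact ⟨⟨t', by rw [← hKK]; exact ht'⟩, h3⟩
  have h2' : ∀ t : K k, ∃ t' : K k, e (x (C.neg k) t) = x (C.neg k') t' := fun t => by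
    obtain ⟨t', ht', h3⟩ := h2 t t.2
    exact ⟨⟨t', by rw [← hKK]; exact ht'⟩, h3⟩
  choose ψ hψ using h1'
  choose φ hφ using h2'
  have m1 : ∀ t : K k, (t : F) ∈ K k := fun t => t.2
  have m2 : ∀ t : K k, (t : F) ∈ K k' := fun t => by rw [hKK]; exact t.2
  have m3 : ∀ t : K k, (t : F) ∈ K (C.neg k) := fun t => by rw [h.K_neg]; exact t.2
  have m4 : ∀ t : K k, (t : F) ∈ K (C.neg k') := fun t => by rw [h.K_neg, hKK]; exact t.2
  have ψadd : ∀ a b, ψ (a + b) = ψ a + ψ b := fun a b => by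
    apply Subtype.ext
    apply h.x_inj (i := k') (m2 _) (m2 _)
    rw [← hψ, Subfield.coe_add, h.add _ _ _ (m1 a) (m1 b), map_mul, hψ, hψ, Subfield.coe_add,
      h.add _ _ _ (m2 _) (m2 _)]
  have φadd : ∀ a b, φ (a + b) = φ a + φ b := fun a b => by
    apply Subtype.ext
    apply h.x_inj (i := C.neg k') (m4 _) (m4 _)
    rw [← hφ, Subfield.coe_add, h.add _ _ _ (m3 a) (m3 b), map_mul, hφ, hφ, Subfield.coe_add,
      h.add _ _ _ (m4 _) (m4 _)]
  have ψinj : Function.Injective ψ := fun a b hab => by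
    apply Subtype.ext
    apply h.x_inj (i := k) (m1 _) (m1 _)
    apply e.injective
    rw [hψ, hψ, hab]
  have φinj : Function.Injective φ := fun a b hab => by
    apply Subtype.ext
    apply h.x_inj (i := C.neg k) (m3 _) (m3 _)
    apply e.injective
    rw [hφ, hφ, hab]
  have φsurj := Finite.injective_iff_surjective.1 φinj
  have ψ0 : ψ 0 = 0 := by
    have := ψadd 0 0
    rw [add_zero] at this
    linear_combination -this
  have φneg : ∀ a, φ (-a) = -φ a := fun a => by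
    have h5 : φ 0 = 0 := by
      have := φadd 0 0
      rw [add_zero] at this
      linear_combination -this
    have := φadd a (-a)
    rw [add_neg_cancel, h5] at this
    linear_combination -this
  have hrel : ∀ t, t ≠ 0 → φ t⁻¹ = (ψ t)⁻¹ := by
    intro t ht
    have ht' : (t : F) ≠ 0 := fun e0 => ht (Subtype.ext e0)
    obtain ⟨a, ha⟩ : ∃ a, a = ψ t := ⟨_, rfl⟩
    have ha0 : a ≠ 0 := by
      rw [ha]
      exact fun e0 => ht (ψinj (by rw [e0, ψ0]))
    have ha0' : (a : F) ≠ 0 := fun e0 => ha0 (Subtype.ext e0)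
    obtain ⟨y, hy⟩ : ∃ y, y = φ (-t⁻¹) := ⟨_, rfl⟩
    have hen : e (nn C.neg x k t) = x k' a * x (C.neg k') y * x k' a := by
      have e5 : (-(t : F)⁻¹) = ((-t⁻¹ : K k) : F) := by push_cast; rfl
      rw [nn, map_mul, map_mul, hψ, e5, hφ, ← ha, ← hy]
    -- the images
    have hA : ∀ v : K k, ∃ v' : K k, x k' a * x (C.neg k') y * x k' a * x (C.neg k') v *
        (x k' a * x (C.neg k') y * x k' a)⁻¹ = x k' v' := by
      intro v
      obtain ⟨u, rfl⟩ := φsurj v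
      obtain ⟨τ, hτ, hc'⟩ := h.refl k k
      obtain ⟨c, hcK, hc0, hc⟩ := hc' t t.2 ht'
      have h5 := (hc u u.2).2
      rw [C.s_self, C.neg_neg] at h5
      refine ⟨ψ ⟨c⁻¹ * τ u, mul_mem (inv_mem hcK) ((hτ _).2 u.2)⟩, ?_⟩
      rw [← hen, ← hφ, ← hψ]
      change e (nn C.neg x k t) * e (x (C.neg k) u) * (e (nn C.neg x k t))⁻¹ = e (x k (c⁻¹ * τ u))
      rw [← h5, map_mul, map_mul, map_inv]
    have hB : ∀ w : K k, ∃ v : K k, x k' a * x (C.neg k') (-(a : F)⁻¹) * x k' a *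
        x (C.neg k') v * (x k' a * x (C.neg k') (-(a : F)⁻¹) * x k' a)⁻¹ = x k' w := by
      intro w
      obtain ⟨τ, hτ, hc'⟩ := h.refl k' k'
      obtain ⟨c, hcK, hc0, hc⟩ := hc' a (m2 a) ha0'
      have hv : τ.symm (c * w) ∈ K k' := by
        rw [← hτ, τ.apply_symm_apply]
        exact mul_mem hcK (m2 w)
      have h5 := (hc _ hv).2
      rw [C.s_self, C.neg_neg, τ.apply_symm_apply, inv_mul_cancel_left₀ hc0] at h5
      exact ⟨⟨_, (SetLike.ext_iff.1 hKK _).1 hv⟩, h5⟩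
    have hz : y + a⁻¹ = 0 := by
      apply Subtype.ext
      apply h.norm_zero (k := k') (m2 _)
      intro w hw
      obtain ⟨v, hv⟩ := hB ⟨w, by rw [← hKK]; exact hw⟩
      obtain ⟨v', hv'⟩ := hA v
      refine ⟨v', m2 v', ?_⟩
      change _ = x k' w at hv
      have m5 : -(a : F)⁻¹ ∈ K (C.neg k') := neg_mem (inv_mem (m4 a))
      have e1 : x (C.neg k') ((y + a⁻¹ : K k) : F) =
          x (C.neg k') y * (x (C.neg k') (-(a : F)⁻¹))⁻¹ := by
        rw [← h.x_neg _ m5, neg_neg, Subfield.coe_add, h.add _ _ _ (m4 y) (m4 _)]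
        rfl
      have e2 : ∀ w ∈ K k', (x k' a)⁻¹ * x k' w * x k' a = x k' w := by
        intro w hw
        rw [← h.x_neg k' (m2 a), ← h.add _ _ _ (neg_mem (m2 a)) hw,
          ← h.add _ _ _ (add_mem (neg_mem (m2 a)) hw) (m2 a)]
        congr 1
        ring
      have e4 : (x (C.neg k') (-(a : F)⁻¹))⁻¹ * x k' w * x (C.neg k') (-(a : F)⁻¹) =
          x k' a * x (C.neg k') v * (x k' a)⁻¹ := by
        rw [← e2 w hw, ← hv]
        group
      calc x (C.neg k') ((y + a⁻¹ : K k) : F) * x k' w * (x (C.neg k') ((y + a⁻¹ : K k) : F))⁻¹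
          = x (C.neg k') y * ((x (C.neg k') (-(a : F)⁻¹))⁻¹ * x k' w *
              x (C.neg k') (-(a : F)⁻¹)) * (x (C.neg k') y)⁻¹ := by rw [e1]; group
        _ = (x k' a)⁻¹ * (x k' a * x (C.neg k') y * x k' a * x (C.neg k') v *
              (x k' a * x (C.neg k') y * x k' a)⁻¹) * x k' a := by rw [e4]; group
        _ = x k' v' := by rw [hv', e2 _ (m2 v')]
    rw [hy, φneg] at hz
    rw [← ha]
    linear_combination -hz
  obtain ⟨σ, c, hc, h5⟩ := hua ψ φ ψadd φadd ψinj hrel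
  exact ⟨σ, c, hc, fun t => ⟨by rw [hψ, (h5 t).1], by rw [hφ, (h5 t).2]⟩⟩

omit [Finite F] in
/-- the relation given by the torus -/
theorem torus_rel {e : MulAut L} {i j k l : ι} {σ : K i ≃+* K i} {τ : K j ≃+* K j}
    (hki : K k = K i) (hlj : K l = K j) {c : K i} {d : K j} (hc : c ≠ 0) (hd : d ≠ 0)
    (h1 : ∀ t : K i, e (x i t) = x k ((c * σ t : K i) : F) ∧
      e (x (C.neg i) t) = x (C.neg k) ((c⁻¹ * σ t : K i) : F))
    (h2 : ∀ t : K j, e (x j t) = x l ((d * τ t : K j) : F)) (hR : LR C K x i j)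
    (hR' : LR C K x k l) (t : K i) :
    ((τ ⟨t, hR.1 t.2⟩ : K j) : F) = σ t := by
  by_cases ht : t = 0
  · subst ht
    have e1 : (⟨((0 : K i) : F), hR.1 (0 : K i).2⟩ : K j) = 0 := Subtype.ext rfl
    rw [e1, map_zero, map_zero]
    rfl
  have ht' : (t : F) ≠ 0 := fun e0 => ht (Subtype.ext e0)
  have hσ : ∀ s : K i, s ≠ 0 → σ s ≠ 0 := fun s hs => by rwa [Ne, map_eq_zero_iff _ σ.injective]
  have hen : ∀ s : K i, s ≠ 0 → e (nn C.neg x i s) = nn C.neg x k ((c * σ s : K i) : F) := by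
    intro s hs
    have e5 : (-(s : F)⁻¹) = ((-s⁻¹ : K i) : F) := by push_cast; rfl
    rw [nn, nn, map_mul, map_mul, (h1 s).1, e5, (h1 (-s⁻¹)).2]
    congr 3
    push_cast
    rw [map_neg, map_inv₀]
    push_cast
    rw [mul_inv]
    ring
  have h3 := hR.2 t 1 t.2 ht' (one_mem _)
  have h4 := congrArg e h3
  have e6 : x i ((1 : K i) : F) = x i 1 := rfl
  have e7 := hen 1 one_ne_zero
  rw [map_one, mul_one] at e7
  change e (nn C.neg x i 1) = _ at e7
  have hti : (t : F)⁻¹ * 1 ∈ K j := mul_mem (inv_mem (hR.1 t.2)) (one_mem _)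
  have e8 : e (x j ((t : F)⁻¹ * 1)) = x l ((d * τ ⟨(t : F)⁻¹ * 1, hti⟩ : K j) : F) := h2 ⟨_, hti⟩
  have e9 : e (x j 1) = x l (d : F) := by
    have := h2 1
    rw [map_one, mul_one] at this
    exact this
  rw [map_mul, map_mul, map_mul, map_inv, map_inv, map_mul, map_inv, hen t ht, e7, e8, e9] at h4
  have hcs : ((c * σ t : K i) : F) ∈ K k := by rw [hki]; exact (c * σ t).2
  have hcs0 : ((c * σ t : K i) : F) ≠ 0 := fun e0 => mul_ne_zero hc (hσ t ht) (Subtype.ext e0)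
  have hck : (c : F) ∈ K k := by rw [hki]; exact c.2
  have hc0 : (c : F) ≠ 0 := fun e0 => hc (Subtype.ext e0)
  have hcl : (c : F) ∈ K l := hR'.1 hck
  have hd0 : (d : F) ≠ 0 := fun e0 => hd (Subtype.ext e0)
  have hdl : (d : F) ∈ K l := by rw [hlj]; exact d.2
  have h5 := hR'.2 ((c * σ t : K i) : F) ((c : F) * d) hcs hcs0 (mul_mem hcl hdl)
  have h6 := hR'.2 (c : F) ((c : F) * d) hck hc0 (mul_mem hcl hdl)
  rw [inv_mul_cancel_left₀ hc0] at h6
  have e1 : nn C.neg x k ((c * σ t : K i) : F) * (nn C.neg x k c)⁻¹ * x l d *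
      (nn C.neg x k ((c * σ t : K i) : F) * (nn C.neg x k c)⁻¹)⁻¹ =
      x l (((c * σ t : K i) : F)⁻¹ * ((c : F) * d)) := by
    rw [← h5, ← h6]
    group
  rw [e1] at h4
  have m6 : ((c * σ t : K i) : F)⁻¹ * ((c : F) * d) ∈ K l :=
    mul_mem (inv_mem (hR'.1 hcs)) (mul_mem hcl hdl)
  have m7 : ((d * τ ⟨(t : F)⁻¹ * 1, hti⟩ : K j) : F) ∈ K l := by
    rw [hlj]
    exact (d * τ ⟨(t : F)⁻¹ * 1, hti⟩).2
  have h7 := h.x_inj m6 m7 h4
  have e10 : (⟨(t : F)⁻¹ * 1, hti⟩ : K j) = (⟨(t : F), hR.1 t.2⟩ : K j)⁻¹ := by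
    apply Subtype.ext
    push_cast
    rw [mul_one]
  rw [e10, map_inv₀] at h7
  push_cast at h7
  have hst : ((σ t : K i) : F) ≠ 0 := fun e0 => hσ t ht (Subtype.ext e0)
  have htt : ((τ ⟨(t : F), hR.1 t.2⟩ : K j) : F) ≠ 0 := by
    intro e0
    have e11 : τ ⟨(t : F), hR.1 t.2⟩ = 0 := Subtype.ext e0
    rw [map_eq_zero_iff _ τ.injective] at e11
    exact ht' (congrArg Subtype.val e11)
  field_simp at h7
  linear_combination h7

end TS

end

end Vale.Agent.P240.R2.H945.W
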