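import Vale.Agent.P240.R2.H945.W.X3
import Vale.Agent.P240.R2.H986.X.Rt
import Vale.Agent.P240.R2.H195.RigA

/-!
Twisted groups: the opposite root system, factorizations, and the root subgroups of the simple roots.
-/

set_option autoImplicit false

namespace Vale.Agent.P240.R2.H945.W

open Subgroup Vale.Agent.P240.K Vale.Agent.P240.H195
open Vale.Agent.P240.R2.H986.X (RC nn nl wl nl_nil nl_cons nl_append wl_nil wl_cons wl_append wl_neg wl_s
  wl_rev wl_rev' SS)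

/-- a finite subset of a subfield -/
lemma sub_surj {F : Type*} [Field F] [Finite F] {K : Subfield F}
    {φ : F → F} (h1 : ∀ u ∈ K, φ u ∈ K) (h2 : ∀ u ∈ K, ∀ v ∈ K, φ u = φ v → u = v) {w : F}
    (hw : w ∈ K) : ∃ u ∈ K, φ u = w := by
  have hinj : Function.Injective (fun u : K => (⟨φ u, h1 u u.2⟩ : K)) := by
    intro u v huv
    exact Subtype.ext (h2 u u.2 v v.2 (congrArg Subtype.val huv))
  obtain ⟨u, hu⟩ := Finite.injective_iff_surjective.1 hinj ⟨w, hw⟩
  exact ⟨u, u.2, congrArg Subtype.val hu⟩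

section
variable {ι : Type*} {F : Type*} [Field F] {L : Type*} [Group L] {C : RC ι} {K : ι → Subfield F}
  {x : ι → F → L}

lemma UU_opp : UU C.opp K x = UM C K x := by
  unfold UU UM
  congr 1
  funext i
  exact propext neg_pos

lemma UM_opp : UM C.opp K x = UU C K x := by
  unfold UU UM
  congr 1
  funext i
  exact propext neg_lt_zero

lemma TT_opp : TT C.opp K x = TT C K x := rfl

theorem TS.opp' (h : TS C K x) : TS C.opp K x where
  K_s := h.K_s
  add := h.add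
  inj := h.inj
  comm := h.comm
  refl := h.refl
  self := h.self
  gen := h.gen
  opp := by
    have h1 := h.opp
    rw [inf_comm] at h1
    have e1 : UU C.opp K x = UM C K x := UU_opp
    have e2 : UM C.opp K x = UU C K x := UM_opp
    have e3 : UM C K x ⊓ UU C K x = ⊥ := h1
    have e4 : UU C.opp K x ⊓ UM C.opp K x = ⊥ := by rw [e1, e2, e3]
    exact e4

namespace TS

variable (h : TS C K x)
include h

/-- `x_i(t)` normalizes the group generated by the other positive root elements, `i` simple -/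
lemma conj_simple {i : ι} (hi : C.simp i) {t : F} (ht : t ∈ K i) {v : L}
    (hv : v ∈ gr K x (fun j => 0 < C.ht j ∧ j ≠ i)) :
    x i t * v * (x i t)⁻¹ ∈ gr K x (fun j => 0 < C.ht j ∧ j ≠ i) := by
  refine closure_induction (p := fun v _ => x i t * v * (x i t)⁻¹ ∈
    gr K x (fun j => 0 < C.ht j ∧ j ≠ i)) ?_ ?_ ?_ ?_ hv
  · rintro _ ⟨j, u, ⟨hj, hji⟩, hu, rfl⟩
    have hip := C.simp_pos i hi
    have h1 := h.comm i j hji.symm (fun e => by
      have := C.ht_neg j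
      rw [← e] at this
      omega) t u ht hu
    have h2 : gr K x (C.cone i j) ≤ gr K x (fun j => 0 < C.ht j ∧ j ≠ i) := by
      refine closure_mono ?_
      rintro _ ⟨k, w, hk, hw, rfl⟩
      have h3 := C.cone_ht i j k hk hip hj
      exact ⟨k, w, ⟨by omega, C.cone_simp i j k hi hj hji hk⟩, hw, rfl⟩
    have e1 : x i t * x j u * (x i t)⁻¹ = (x i t * x j u * (x i t)⁻¹ * (x j u)⁻¹) * x j u := by group
    rw [e1]
    exact mul_mem (h2 h1) (x_mem_gr (p := fun j => 0 < C.ht j ∧ j ≠ i) ⟨hj, hji⟩ hu)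
  · simp
  · intro a b _ _ h1 h2
    have e1 : x i t * (a * b) * (x i t)⁻¹ = (x i t * a * (x i t)⁻¹) * (x i t * b * (x i t)⁻¹) := by
      group
    rw [e1]
    exact mul_mem h1 h2
  · intro a _ h1
    have e1 : x i t * a⁻¹ * (x i t)⁻¹ = (x i t * a * (x i t)⁻¹)⁻¹ := by group
    rw [e1]
    exact inv_mem h1

/-- `U = U_i X_i` -/
lemma fac {i : ι} (hi : C.simp i) {u : L} (hu : u ∈ UU C K x) :
    ∃ v ∈ gr K x (fun j => 0 < C.ht j ∧ j ≠ i), ∃ t ∈ K i, u = v * x i t := by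
  have step : ∀ (j : ι) (w : F), w ∈ K j → 0 < C.ht j → ∀ y : L,
      (∃ v ∈ gr K x (fun j => 0 < C.ht j ∧ j ≠ i), ∃ t ∈ K i, y = v * x i t) →
      ∃ v ∈ gr K x (fun j => 0 < C.ht j ∧ j ≠ i), ∃ t ∈ K i, x j w * y = v * x i t := by
    rintro j w hw hj _ ⟨v, hv, t, ht, rfl⟩
    by_cases hji : j = i
    · subst hji
      refine ⟨x j w * v * (x j w)⁻¹, h.conj_simple hi hw hv, w + t, add_mem hw ht, ?_⟩
      rw [h.add j w t hw ht]
      group
    · exact ⟨x j w * v, mul_mem (x_mem_gr (p := fun j => 0 < C.ht j ∧ j ≠ i) ⟨hj, hji⟩ hw) hv, t,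
        ht, by group⟩
  refine closure_induction_left (p := fun u _ => ∃ v ∈ gr K x (fun j => 0 < C.ht j ∧ j ≠ i),
    ∃ t ∈ K i, u = v * x i t) ⟨1, one_mem _, 0, zero_mem _, by rw [h.x_zero, one_mul]⟩ ?_ ?_ hu
  · rintro _ ⟨j, w, hj, hw, rfl⟩ y _ hy
    exact step j w hw hj y hy
  · rintro _ ⟨j, w, hj, hw, rfl⟩ y _ hy
    rw [← h.x_neg j hw]
    exact step j (-w) (neg_mem hw) hj y hy

/-- `U⁻ = U⁻_i X_{-i}` -/
lemma fac_opp {i : ι} (hi : C.simp i) {u : L} (hu : u ∈ UM C K x) :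
    ∃ v ∈ gr K x (fun j => C.ht j < 0 ∧ j ≠ C.neg i), ∃ t ∈ K i, u = v * x (C.neg i) t := by
  rw [← UU_opp] at hu
  obtain ⟨v, hv, t, ht, h1⟩ := h.opp'.fac (i := C.neg i) (by
    show C.simp (C.neg (C.neg i))
    rw [C.neg_neg]
    exact hi) hu
  rw [h.K_neg] at ht
  refine ⟨v, ?_, t, ht, h1⟩
  have e1 : (fun j => 0 < C.opp.ht j ∧ j ≠ C.neg i) = fun j => C.ht j < 0 ∧ j ≠ C.neg i := by
    funext j
    exact propext (and_congr neg_pos Iff.rfl)
  rwa [e1] at hv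

lemma nl_inv_conj_T (l : List ι) {g : L} (hg : g ∈ TT C K x) :
    (nl C x l)⁻¹ * g * nl C x l ∈ TT C K x := by
  induction l generalizing g with
  | nil => simpa [nl_nil] using hg
  | cons i l ih =>
    rw [nl_cons]
    have e1 : (nn C.neg x i 1 * nl C x l)⁻¹ * g * (nn C.neg x i 1 * nl C x l) =
        (nl C x l)⁻¹ * ((nn C.neg x i 1)⁻¹ * g * nn C.neg x i 1) * nl C x l := by group
    rw [e1]
    refine ih ?_
    have h1 := h.nn_conj_T i (v := -1) (neg_mem (one_mem _)) (neg_ne_zero.2 one_ne_zero) hg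
    rw [← h.nn_inv i (one_mem _), inv_inv] at h1
    exact h1

variable [Finite F]

lemma nl_onto (l : List ι) (j : ι) {w : F} (hw : w ∈ K j) : ∃ u ∈ K j,
    nl C x l * x j u * (nl C x l)⁻¹ = x (wl C l j) w := by
  obtain ⟨φ, h1, -, h3, -⟩ := h.nl_act l j
  obtain ⟨u, hu, h5⟩ := sub_surj (K := K j) (φ := φ) h1 (fun u hu v hv e => by
    have e1 : nl C x l * x j u * (nl C x l)⁻¹ = nl C x l * x j v * (nl C x l)⁻¹ := by
      rw [h3 u hu, h3 v hv, e]
    exact h.x_inj hu hv (mul_left_cancel (mul_right_cancel e1))) hw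
  exact ⟨u, hu, by rw [h3 u hu, h5]⟩

/-- the inverse of `nl l` -/
lemma nl_inv_conj_gr {p q : ι → Prop} {l : List ι} (hpq : ∀ i, p i → q (wl C l.reverse i)) {u : L}
    (hu : u ∈ gr K x p) : (nl C x l)⁻¹ * u * nl C x l ∈ gr K x q := by
  refine closure_induction (p := fun u _ => (nl C x l)⁻¹ * u * nl C x l ∈ gr K x q) ?_ ?_ ?_ ?_ hu
  · rintro _ ⟨i, v, hi, hv, rfl⟩
    obtain ⟨u, hu, h2⟩ := h.nl_onto l (wl C l.reverse i) (w := v) (by rw [h.K_wl]; exact hv)
    rw [wl_rev'] at h2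
    have e1 : (nl C x l)⁻¹ * x i v * nl C x l = x (wl C l.reverse i) u := by
      rw [← h2]; group
    rw [e1]
    exact x_mem_gr (hpq i hi) hu
  · simp
  · intro a b _ _ h1 h2
    have e1 : (nl C x l)⁻¹ * (a * b) * nl C x l =
        ((nl C x l)⁻¹ * a * nl C x l) * ((nl C x l)⁻¹ * b * nl C x l) := by group
    rw [e1]
    exact mul_mem h1 h2
  · intro a _ h1
    have e1 : (nl C x l)⁻¹ * a⁻¹ * nl C x l = ((nl C x l)⁻¹ * a * nl C x l)⁻¹ := by group
    rw [e1]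
    exact inv_mem h1

variable {l : List ι} (hl : ∀ j, 0 < C.ht j → C.ht (wl C l j) < 0)

omit [Finite F] h in
include hl in
lemma long_rev (j : ι) (hj : C.ht j < 0) : 0 < C.ht (wl C l.reverse j) := by
  by_contra hcon
  have h1 := C.ht_ne (wl C l.reverse j)
  have h2 := hl (C.neg (wl C l.reverse j)) (by rw [C.ht_neg]; omega)
  rw [wl_neg, wl_rev', C.ht_neg] at h2
  omega

include hl in
/-- `n₀ U n₀⁻¹ = U⁻` -/
lemma cj_UU : cj (nl C x l) (UU C K x) = UM C K x := by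
  ext u
  rw [mem_cj]
  constructor
  · intro hu
    have h1 := h.nl_conj_gr (q := fun i => C.ht i < 0) (l := l) (fun i hi => hl i hi) hu
    have e1 : nl C x l * ((nl C x l)⁻¹ * u * nl C x l) * (nl C x l)⁻¹ = u := by group
    rwa [e1] at h1
  · intro hu
    exact h.nl_inv_conj_gr (q := fun i => 0 < C.ht i) (fun i hi => long_rev hl i hi) hu

omit [Finite F] in
lemma cj_TT : cj (nl C x l) (TT C K x) = TT C K x := by
  refine le_antisymm ?_ ?_
  · intro u hu
    rw [mem_cj] at hu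
    have h1 := h.nl_conj_T l hu
    have e1 : nl C x l * ((nl C x l)⁻¹ * u * nl C x l) * (nl C x l)⁻¹ = u := by group
    rwa [e1] at h1
  · intro u hu
    rw [mem_cj]
    exact h.nl_inv_conj_T l hu

include hl in
/-- `n₀ B n₀⁻¹ = U⁻ T` -/
lemma cj_BB : cj (nl C x l) (BB C K x) = BB C.opp K x := by
  show (UU C K x ⊔ TT C K x).map (MulAut.conj (nl C x l)).toMonoidHom = UU C.opp K x ⊔ TT C.opp K x
  rw [Subgroup.map_sup, UU_opp, TT_opp]
  have h1 := h.cj_UU hl
  have h2 := h.cj_TT (l := l)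
  change (UU C K x).map (MulAut.conj (nl C x l)).toMonoidHom = UM C K x at h1
  change (TT C K x).map (MulAut.conj (nl C x l)).toMonoidHom = TT C K x at h2
  rw [h1, h2]

omit [Finite F] in
include hl in
lemma hopp (y : L) (hy : y ∈ UU C K x) (hny : nl C x l * y * (nl C x l)⁻¹ ∈ UU C K x) : y = 1 := by
  have h1 := h.nl_conj_gr (q := fun i => C.ht i < 0) (l := l) (fun i hi => hl i hi) hy
  have h2 : nl C x l * y * (nl C x l)⁻¹ ∈ UU C K x ⊓ UM C K x := ⟨hny, h1⟩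
  rw [show UU C K x ⊓ UM C K x = ⊥ from h.opp, mem_bot] at h2
  have e1 : y = (nl C x l)⁻¹ * (nl C x l * y * (nl C x l)⁻¹) * nl C x l := by group
  rw [e1, h2]
  group

lemma x_par {i : ι} (hi : C.simp i) {t : F} (ht : t ∈ K i) :
    x (C.neg i) t ∈ Par (BB C K x) (nn C.neg x i 1) := by
  obtain ⟨u, hu, h2⟩ := h.nl_onto [i] i ht
  rw [wl_cons, wl_nil, C.s_self, nl_cons, nl_nil, mul_one] at h2
  rw [← h2]
  exact mul_mem (mul_mem self_mem_Par (le_Par (UU_le (x_mem_UU (C.simp_pos i hi) hu))))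
    (inv_mem self_mem_Par)

variable [Finite L] {r : ℕ} (hr : r.Prime) (hb : SB r (BB C K x) (NN C K x) (UU C K x) (SS C x))
  (hp : IsPGroup r (UM C K x))

omit [Finite F] hl in
include hr hb hp in
lemma eq_one_of_BB_UM {y : L} (hy : y ∈ BB C K x) (hyU : y ∈ UM C K x) : y = 1 := by
  obtain ⟨k, hk⟩ := hp ⟨y, hyU⟩
  have hk' : y ^ r ^ k = 1 := congrArg Subtype.val hk
  have h1 : y ∈ UU C K x ⊓ UM C K x := ⟨hb.mem_U hr hy hk', hyU⟩
  rwa [show UU C K x ⊓ UM C K x = ⊥ from h.opp, mem_bot] at h1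

include hr hb hp hl in
/-- the opposite root subgroup -/
theorem root_eq (hls : ∀ i ∈ l, C.simp i) {i : ι} (hi : C.simp i) {y : L}
    (hy : y ∈ Par (BB C K x) (nn C.neg x i 1)) (hyU : y ∈ UM C K x) :
    ∃ t ∈ K i, y = x (C.neg i) t := by
  obtain ⟨v, hv, t, ht, rfl⟩ := h.fac_opp hi hyU
  refine ⟨t, ht, ?_⟩
  have hs : nn C.neg x i 1 ∈ SS C x := ⟨i, hi, rfl⟩
  have h1 : (nl C x l)⁻¹ * (v * x (C.neg i) t) * nl C x l ∈ UU C K x := by
    have h2 := hyU
    rw [← h.cj_UU hl, mem_cj] at h2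
    exact h2
  have h2 := hb.opp_conj hr (nl_mem (x := x) hls) (h.hopp hl) hs hy h1
  obtain ⟨c, hc, h4⟩ := h.nl_onto [i] i ht
  rw [wl_cons, wl_nil, C.s_self, nl_cons, nl_nil, mul_one] at h4
  have e1 : (nn C.neg x i 1)⁻¹ * (v * x (C.neg i) t) * nn C.neg x i 1 =
      ((nn C.neg x i 1)⁻¹ * v * nn C.neg x i 1) * x i c := by rw [← h4]; group
  rw [e1] at h2
  have h5 : (nn C.neg x i 1)⁻¹ * v * nn C.neg x i 1 ∈ BB C K x := by
    have h6 := mul_mem h2 (inv_mem (UU_le (x_mem_UU (x := x) (C.simp_pos i hi) hc)))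
    rwa [mul_inv_cancel_right] at h6
  have h6 : (nn C.neg x i 1)⁻¹ * v * nn C.neg x i 1 ∈ UM C K x := by
    have h7 := h.nl_inv_conj_gr (q := fun i => C.ht i < 0) (l := [i]) (fun j hj => by
      rw [List.reverse_singleton, wl_cons, wl_nil]
      have h8 := C.s_pos i (C.neg j) hi (by rw [C.ht_neg]; omega)
        (fun e => hj.2 (by rw [← e, C.neg_neg]))
      rw [C.s_neg, C.ht_neg] at h8
      omega) hv
    rwa [nl_cons, nl_nil, mul_one] at h7
  have h7 := h.eq_one_of_BB_UM hr hb hp h5 h6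
  have h8 : v = 1 := by
    have : v = nn C.neg x i 1 * ((nn C.neg x i 1)⁻¹ * v * nn C.neg x i 1) * (nn C.neg x i 1)⁻¹ := by
      group
    rw [this, h7]
    group
  rw [h8, one_mul]

end TS

end

end Vale.Agent.P240.R2.H945.W
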